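import Vale.Agent.Lib.P208.Glue

/-! P208 (Lang-Plaut): the plain form of the question is equivalent to its uniform form, and to
the embeddability of one countable, locally finite doubling set for each doubling constant. -/

namespace Vale.Agent.Results.P208.Uniform

open Vale.Agent.P208

theorem result :
    ((∀ X : Set Hil, (∃ N, DoublingLE N X) → ∃ (k : ℕ) (D : ℝ), Embeds X k D) ↔
      (∀ N : ℕ, ∃ (k : ℕ) (D : ℝ), ∀ X : Set Hil, DoublingLE N X → Embeds X k D)) ∧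
    ∃ U : ℕ → Set Hil,
      (∀ N, (U N).Countable ∧ DoublingLE (N + 4) (U N) ∧
        ∀ R : ℝ, (U N ∩ Metric.closedBall 0 R).Finite) ∧
      (∀ M N : ℕ, M * M ≤ N → ∀ k D : ℕ, Embeds (U N) k D →
        ∀ X : Set Hil, DoublingLE M X → Embeds X k D) ∧
      ((∀ X : Set Hil, (∃ N, DoublingLE N X) → ∃ (k : ℕ) (D : ℝ), Embeds X k D) ↔
        ∀ N, ∃ (k : ℕ) (D : ℝ), Embeds (U N) k D) := by
  choose U h1 h2 h3 h4 using universal
  have h5 : (∀ N, ∃ (k : ℕ) (D : ℝ), Embeds (U N) k D) →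
      (∀ N : ℕ, ∃ (k : ℕ) (D : ℝ), ∀ X : Set Hil, DoublingLE N X → Embeds X k D) := by
    intro h N
    obtain ⟨k, D, hD⟩ := h (N * N)
    exact ⟨k, _, h4 (N * N) k ⌈D⌉₊ (embeds_mono (Nat.le_ceil D) hD) N le_rfl⟩
  have h6 : (∀ N : ℕ, ∃ (k : ℕ) (D : ℝ), ∀ X : Set Hil, DoublingLE N X → Embeds X k D) →
      (∀ X : Set Hil, (∃ N, DoublingLE N X) → ∃ (k : ℕ) (D : ℝ), Embeds X k D) := by
    rintro h X ⟨N, hN⟩
    obtain ⟨k, D, hD⟩ := h N
    exact ⟨k, D, hD X hN⟩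
  have h7 : (∀ X : Set Hil, (∃ N, DoublingLE N X) → ∃ (k : ℕ) (D : ℝ), Embeds X k D) →
      ∀ N, ∃ (k : ℕ) (D : ℝ), Embeds (U N) k D := fun h N => h (U N) ⟨N + 4, h2 N⟩
  exact ⟨⟨fun h => h5 (h7 h), h6⟩, U, fun N => ⟨h1 N, h2 N, h3 N⟩,
    fun M N hMN k D hU X hX => h4 N k D hU M hMN X hX, h7, fun h => h6 (h5 h)⟩

end Vale.Agent.Results.P208.Uniform
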